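import Vale.Agent.P034.Main

theorem Vale.Agent.Results.P034.Talagrand.result :
    ∃ K : ℝ, 1 ≤ K ∧ ∀ (X : Type) [Fintype X] [Nonempty X] (F : Set (Finset X)),
      F.Nonempty → IsUpperSet F → ∅ ∉ F →
        Vale.Agent.P034.fracExpThreshold F ≤ K * Vale.Agent.P034.expThreshold F ∧
        ∀ p ∈ Set.Icc (0 : ℝ) 1,
          Vale.Agent.P034.IsFracSmall F p → Vale.Agent.P034.IsSmall F (p / K) := by
  classical
  refine ⟨2 ^ 18, by norm_num, ?_⟩
  intro X _ _ F _ _ _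
  exact ⟨Vale.Agent.P034.threshold_le F,
    fun p hp h => Vale.Agent.P034.small_of_fracSmall F p hp.1 h⟩
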